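import Mathlib
import Vale.Agent.H9.TalagrandDeg

/-!
# P034: fractional versus integral expectation thresholds (Talagrand's question)

Talagrand's comparison of fractional and integral covers with the explicit constant `32 * D`
for every fractional cover `g` (arbitrary nonnegative weights, sets of arbitrary sizes) of
bounded level degree: for every point `x` and every size `s`, at most `D ^ s` sets of size `s`
with nonzero weight contain `x`. For `D = 1` this is the case of supports whose equal-size
members are pairwise disjoint (singletons, disjoint supports, chains, laminar families).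

`g` is the fractional cover, `∑ S, g S * p ^ S.card` its cost at `p`, the family of all `H` with
`1 ≤ ∑ S ∈ H.powerset, g S` is the largest family it covers, and `G` is the integral cover of
cost at most `1 / 2` at `p / (32 * D)`.
-/

theorem Vale.Agent.Results.P034.B_BoundedDegree.result
    {X : Type*} [Fintype X] [DecidableEq X] (D : ℕ) (hD : 1 ≤ D)
    (g : Finset X → ℝ) (p : ℝ) (hp0 : 0 ≤ p) (hp1 : p ≤ 1) (hg : ∀ S, 0 ≤ g S)
    (hdeg : ∀ (x : X) (s : ℕ) (C : Finset (Finset X)),
      (∀ S ∈ C, g S ≠ 0 ∧ S.card = s ∧ x ∈ S) → C.card ≤ D ^ s)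
    (hcost : ∑ S, g S * p ^ S.card ≤ 1 / 2) :
    ∃ G : Finset (Finset X), ∑ T ∈ G, (p / (32 * D)) ^ T.card ≤ 1 / 2 ∧
      ∀ H : Finset X, 1 ≤ ∑ S ∈ H.powerset, g S → ∃ T ∈ G, T ⊆ H :=
  Vale.Agent.H9.talagrand_bounded_degree D hD g p hp0 hp1 hg hdeg hcost
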