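import Vale.Agent.H9.GraphCover

/-!
# P034: Talagrand's comparison for graph-containment families of bounded degree

Ground set: `X = Sym2 (Fin n)`, the unordered pairs of vertices (the diagonal pairs are dummy
elements: they lie in no edge set).  For a graph `H` on `Fin n`, the increasing family is
`F_H = {W ⊆ X : W contains the edge set of a copy of H}`, a copy being the image of `H` under a
permutation of the vertices.

If every vertex of `H` has at most `Δ` neighbours (`Δ ≥ 1`) and `g ≥ 0` is a fractional cover of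
`F_H` with cost `∑_S g(S) p^|S| ≤ 1/2` at some `p ∈ [0,1]`, then `F_H` has a cover `𝒢`, made of
sets of non-diagonal pairs, with cost `∑_{T ∈ 𝒢} (p/(432Δ))^|T| ≤ 1/2`.  Hence
`q_f(F_H) ≤ 432 Δ q(F_H)`.
-/

open Vale.Agent.H17.KK Vale.Agent.H9.GraphCover

theorem Vale.Agent.Results.P034.C_GraphContainment.result (n : ℕ) (H : SimpleGraph (Fin n))
    (Δ : ℕ) (hΔ : 1 ≤ Δ) (hdeg : ∀ v : Fin n, (H.neighborSet v).ncard ≤ Δ)
    (g : Finset (Sym2 (Fin n)) → ℝ) (hg : ∀ S, 0 ≤ g S)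
    (p : ℝ) (hp0 : 0 ≤ p) (hp1 : p ≤ 1)
    (hcost : ∑ S : Finset (Sym2 (Fin n)), g S * p ^ S.card ≤ 1 / 2)
    (hcover : ∀ (σ : Equiv.Perm (Fin n)) (W : Finset (Sym2 (Fin n))),
      (H.map σ.toEmbedding).edgeSet ⊆ (W : Set (Sym2 (Fin n))) →
        1 ≤ ∑ S ∈ W.powerset, g S) :
    ∃ 𝒢 : Finset (Finset (Sym2 (Fin n))),
      (∀ T ∈ 𝒢, ∀ e ∈ T, ¬ e.IsDiag) ∧
      ∑ T ∈ 𝒢, (p / (432 * (Δ : ℝ))) ^ T.card ≤ 1 / 2 ∧
      ∀ (σ : Equiv.Perm (Fin n)) (W : Finset (Sym2 (Fin n))),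
        (H.map σ.toEmbedding).edgeSet ⊆ (W : Set (Sym2 (Fin n))) → ∃ T ∈ 𝒢, T ⊆ W := by
  have hcov : ∀ σ : Equiv.Perm (Fin n), 1 ≤ ∑ S ∈ (ed (pm σ H)).powerset, g S := by
    intro σ
    apply hcover σ
    rw [coe_ed]
  obtain ⟨F, hFH, hF⟩ := graph_cover H Δ hΔ hdeg g hg p hp0 hp1 hcost hcov
  refine ⟨fam F, ?_, hF, ?_⟩
  · intro T hT e he
    have h1 := fam_subset_ground F T hT he
    simp only [ground, Finset.mem_filter, Finset.mem_univ, true_and] at h1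
    exact h1
  · intro σ W hW
    refine ⟨ed (pm σ F), mem_fam.2 ⟨σ, rfl⟩, ?_⟩
    intro e he
    rw [mem_ed] at he
    have h2 : (pm σ F).edgeSet ⊆ (pm σ H).edgeSet :=
      SimpleGraph.edgeSet_subset_edgeSet.2 (pm_mono σ hFH)
    exact Finset.mem_coe.1 (hW (h2 he))
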