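import Vale.Agent.Results.P034.D_TreeSupports
import Vale.Agent.Results.P034.B_BoundedDegree
import Vale.Agent.Results.P034.C_GraphContainment

/-!
# P034: three special cases of Talagrand's comparison, in one statement

Throughout, `g` is a nonnegative function on the subsets of a finite ground set, `p` lies in
`[0, 1]` and the cost `∑ S, g S * p ^ |S|` is at most `1/2`.

(1) Tree-like supports: if for all sets `S`, `T`, `U` of nonzero weight one of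
`S ∩ T ⊆ S ∩ U`, `S ∩ U ⊆ S ∩ T` holds, there is a family `G` with
`∑ T ∈ G, (p / 64) ^ |T| ≤ 1/2` such that every `H` with `∑ S ⊆ H, g S ≥ 1` contains a member
of `G`.

(2) Supports of bounded degree: if every point lies in at most `D ^ s` sets of size `s` and
nonzero weight, the same holds with `32 * D` in place of `64`.

(3) Graph containment: ground set `Sym2 (Fin n)`; if every vertex of the graph `H` has at most
`Δ` neighbours and `∑ S ⊆ W, g S ≥ 1` for every `W` containing the edge set of a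
vertex-permuted copy of `H`, there is a family `𝒢` of sets of non-diagonal pairs with
`∑ T ∈ 𝒢, (p / (432 Δ)) ^ |T| ≤ 1/2` such that every such `W` contains a member of `𝒢`.

The three parts are the hand-ins `D_TreeSupports`, `B_BoundedDegree`, `C_GraphContainment` of
this folder, stated together.
-/

theorem Vale.Agent.Results.P034.A0_ThreeSpecialCases.result :
    (∀ (X : Type) [Fintype X] [DecidableEq X] (g : Finset X → ℝ) (p : ℝ),
      0 ≤ p → p ≤ 1 → (∀ S, 0 ≤ g S) →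
      (∀ S T U, g S ≠ 0 → g T ≠ 0 → g U ≠ 0 → S ∩ T ⊆ S ∩ U ∨ S ∩ U ⊆ S ∩ T) →
      ∑ S, g S * p ^ S.card ≤ 1 / 2 →
      ∃ G : Finset (Finset X), ∑ T ∈ G, (p / 64) ^ T.card ≤ 1 / 2 ∧
        ∀ H : Finset X, 1 ≤ ∑ S ∈ H.powerset, g S → ∃ T ∈ G, T ⊆ H) ∧
    (∀ (X : Type) [Fintype X] [DecidableEq X] (D : ℕ), 1 ≤ D →
      ∀ (g : Finset X → ℝ) (p : ℝ), 0 ≤ p → p ≤ 1 → (∀ S, 0 ≤ g S) →
      (∀ (x : X) (s : ℕ) (C : Finset (Finset X)),
        (∀ S ∈ C, g S ≠ 0 ∧ S.card = s ∧ x ∈ S) → C.card ≤ D ^ s) →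
      ∑ S, g S * p ^ S.card ≤ 1 / 2 →
      ∃ G : Finset (Finset X), ∑ T ∈ G, (p / (32 * D)) ^ T.card ≤ 1 / 2 ∧
        ∀ H : Finset X, 1 ≤ ∑ S ∈ H.powerset, g S → ∃ T ∈ G, T ⊆ H) ∧
    (∀ (n : ℕ) (H : SimpleGraph (Fin n)) (Δ : ℕ), 1 ≤ Δ →
      (∀ v : Fin n, (H.neighborSet v).ncard ≤ Δ) →
      ∀ (g : Finset (Sym2 (Fin n)) → ℝ), (∀ S, 0 ≤ g S) →
      ∀ p : ℝ, 0 ≤ p → p ≤ 1 →
      ∑ S : Finset (Sym2 (Fin n)), g S * p ^ S.card ≤ 1 / 2 →
      (∀ (σ : Equiv.Perm (Fin n)) (W : Finset (Sym2 (Fin n))),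
        (H.map σ.toEmbedding).edgeSet ⊆ (W : Set (Sym2 (Fin n))) →
          1 ≤ ∑ S ∈ W.powerset, g S) →
      ∃ 𝒢 : Finset (Finset (Sym2 (Fin n))),
        (∀ T ∈ 𝒢, ∀ e ∈ T, ¬ e.IsDiag) ∧
        ∑ T ∈ 𝒢, (p / (432 * (Δ : ℝ))) ^ T.card ≤ 1 / 2 ∧
        ∀ (σ : Equiv.Perm (Fin n)) (W : Finset (Sym2 (Fin n))),
          (H.map σ.toEmbedding).edgeSet ⊆ (W : Set (Sym2 (Fin n))) → ∃ T ∈ 𝒢, T ⊆ W) :=
  ⟨fun _ _ _ g p hp0 hp1 hg hnest hcost =>
      Vale.Agent.Results.P034.D_TreeSupports.result g p hp0 hp1 hg hnest hcost,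
    fun _ _ _ D hD g p hp0 hp1 hg hdeg hcost =>
      Vale.Agent.Results.P034.B_BoundedDegree.result D hD g p hp0 hp1 hg hdeg hcost,
    fun n H Δ hΔ hdeg g hg p hp0 hp1 hcost hcover =>
      Vale.Agent.Results.P034.C_GraphContainment.result n H Δ hΔ hdeg g hg p hp0 hp1 hcost
        hcover⟩
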