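import Mathlib
import Vale.Agent.H9.TreeClasses

/-!
# P034: fractional versus integral expectation thresholds (Talagrand's question)

Talagrand's comparison of fractional and integral covers for fractional covers `g` whose support
splits into classes with nested traces. The nonempty sets of nonzero weight are assigned
classes `c S < m`; inside a class, for all sets `S`, `T`, `U` one of `S ∩ T ⊆ S ∩ U`,
`S ∩ U ⊆ S ∩ T` holds; the sets of class `j` have at least `s j` elements, and
`∑ j < m, (1 / lam) ^ s j ≤ 1` for a real `lam ≥ 1`. Then the constant `64 * lam` works.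

Special cases: a single class (`m = 1`, `lam = 1`) gives the universal constant `64` for supports
with nested traces; `m` classes give `64 * m`; at most `D ^ s` classes among the sets of each
size `s` give `128 * D`.

`g` is the fractional cover, `∑ S, g S * p ^ S.card` its cost at `p`, the family of all `H` with
`1 ≤ ∑ S ∈ H.powerset, g S` is the largest family it covers, and `G` is the integral cover of
cost at most `1 / 2` at `p / (64 * lam)`.
-/

theorem Vale.Agent.Results.P034.A_TreeClasses.result
    {X : Type*} [Fintype X] [DecidableEq X] (g : Finset X → ℝ) (p lam : ℝ) (m : ℕ)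
    (c : Finset X → ℕ) (s : ℕ → ℕ)
    (hp0 : 0 ≤ p) (hp1 : p ≤ 1) (hlam : 1 ≤ lam) (hg : ∀ S, 0 ≤ g S)
    (hclass : ∀ S, g S ≠ 0 → S.Nonempty → c S < m ∧ s (c S) ≤ S.card)
    (hkraft : (∑ j ∈ Finset.range m, (1 / lam) ^ s j) ≤ 1)
    (hnest : ∀ S T U, g S ≠ 0 → g T ≠ 0 → g U ≠ 0 → c S = c T → c S = c U →
      S ∩ T ⊆ S ∩ U ∨ S ∩ U ⊆ S ∩ T)
    (hcost : (∑ S, g S * p ^ S.card) ≤ 1 / 2) :
    ∃ G : Finset (Finset X), (∑ T ∈ G, (p / (64 * lam)) ^ T.card) ≤ 1 / 2 ∧
      ∀ H : Finset X, 1 ≤ (∑ S ∈ H.powerset, g S) → ∃ T ∈ G, T ⊆ H :=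
  Vale.Agent.H9.talagrand_tree_classes g p lam m c s hp0 hp1 hlam hg hclass hkraft hnest hcost
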