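import Mathlib
import Vale.Agent.H9.TreeMain

/-!
# P034: fractional versus integral expectation thresholds (Talagrand's question)

A special case of Talagrand's comparison of fractional and integral covers with the universal
constant `64`: it holds for every fractional cover `g` (arbitrary nonnegative weights, sets of
arbitrary sizes) whose support has nested traces, that is, for all sets `S`, `T`, `U` of nonzero
weight one of `S ∩ T ⊆ S ∩ U`, `S ∩ U ⊆ S ∩ T` holds. Examples: supports made of vertex sets
of root-to-node paths of a rooted forest, sunflowers with a common kernel, chains, pairwise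
disjoint sets, singletons.

`g` is the fractional cover, `∑ S, g S * p ^ S.card` its cost at `p`, the family of all `H` with
`1 ≤ ∑ S ∈ H.powerset, g S` is the largest family it covers, and `G` is the integral cover of
cost at most `1 / 2` at `p / 64`.
-/

theorem Vale.Agent.Results.P034.D_TreeSupports.result
    {X : Type*} [Fintype X] [DecidableEq X] (g : Finset X → ℝ) (p : ℝ)
    (hp0 : 0 ≤ p) (hp1 : p ≤ 1) (hg : ∀ S, 0 ≤ g S)
    (hnest : ∀ S T U, g S ≠ 0 → g T ≠ 0 → g U ≠ 0 → S ∩ T ⊆ S ∩ U ∨ S ∩ U ⊆ S ∩ T)
    (hcost : ∑ S, g S * p ^ S.card ≤ 1 / 2) :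
    ∃ G : Finset (Finset X), ∑ T ∈ G, (p / 64) ^ T.card ≤ 1 / 2 ∧
      ∀ H : Finset X, 1 ≤ ∑ S ∈ H.powerset, g S → ∃ T ∈ G, T ⊆ H :=
  Vale.Agent.H9.talagrand_tree g p hp0 hp1 hg hnest hcost
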